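import Vale.Agent.P091.AD.H208.Noise
import Vale.Agent.P091.AD.H134.Refine

/-!
# P091, AD block, row AD-9a (helper208): the law of the good letters

`good_law`: from a local pair `(ξ, T)` to a law `μ1` on the sample space of the pair under which
the letter is cheap and the noise `T_1 + ... + T_M - T'_1 - ... - T'_M` hides it.
-/

set_option autoImplicit false

open Finset Real
open Vale.Agent.P065.Ent

noncomputable section

namespace Vale.Agent.P091.AD.H208

open Vale.Agent.P091.AD Vale.Agent.P091.AD.H356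

/-! ## The uniform law of the differences -/

section unif
variable {Γ : Type*} [AddCommGroup Γ]

open Classical in
/-- the differences of `A` -/
def dif (A : Finset Γ) : Finset Γ := (A ×ˢ A).image fun p => p.1 - p.2

open Classical in
/-- the uniform law of the differences of `A` -/
def Un (A : Finset Γ) (x : Γ) : ℝ := if x ∈ dif A then 1 / ((dif A).card : ℝ) else 0

theorem mem_dif {A : Finset Γ} {x y : Γ} (hx : x ∈ A) (hy : y ∈ A) : x - y ∈ dif A := by
  classical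
  unfold dif
  exact mem_image.mpr ⟨(x, y), mem_product.mpr ⟨hx, hy⟩, rfl⟩

theorem Un_subP (A : Finset Γ) : SubP (Un A) := by
  classical
  refine ⟨fun x => ?_, fun S => ?_⟩
  · unfold Un
    split_ifs
    · positivity
    · exact le_rfl
  · unfold Un
    rw [sum_ite, sum_const_zero, add_zero, sum_const, nsmul_eq_mul]
    have h1 : (S.filter fun x => x ∈ dif A) ⊆ dif A := fun x hx => (mem_filter.mp hx).2
    have h2 : ((S.filter fun x => x ∈ dif A).card : ℝ) ≤ (dif A).card := by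
      exact_mod_cast card_le_card h1
    rw [mul_one_div]
    exact div_le_one_of_le₀ h2 (by positivity)

theorem Un_pos {A : Finset Γ} {x : Γ} (hx : x ∈ dif A) : 0 < Un A x := by
  classical
  unfold Un
  rw [if_pos hx]
  have : 0 < (dif A).card := card_pos.mpr ⟨x, hx⟩
  positivity

theorem log_Un {A : Finset Γ} {x : Γ} (hx : x ∈ dif A) : - log (Un A x) ≤ 2 * log A.card := by
  classical
  have h0 : 0 < (dif A).card := card_pos.mpr ⟨x, hx⟩
  have h1 : (dif A).card ≤ A.card * A.card := by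
    unfold dif
    refine card_image_le.trans ?_
    rw [card_product]
  have h2 : 0 < A.card := by
    rcases Nat.eq_zero_or_pos A.card with h | h
    · rw [h] at h1; omega
    · exact h
  unfold Un
  rw [if_pos hx, one_div, log_inv, neg_neg]
  have h3 : ((dif A).card : ℝ) ≤ (A.card : ℝ) * A.card := by exact_mod_cast h1
  have h4 : (0 : ℝ) < (dif A).card := by exact_mod_cast h0
  have h5 : (0 : ℝ) < A.card := by exact_mod_cast h2
  calc log ((dif A).card : ℝ) ≤ log ((A.card : ℝ) * A.card) := log_le_log h4 h3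
    _ = 2 * log A.card := by rw [log_mul h5.ne' h5.ne']; ring

end unif

/-! ## The cost of a density change -/

section cost
variable {Γ : Type} {Ω' : Type*} [Fintype Ω']

/-- the reference kernel of a labelled law -/
def rf (lam : Law Γ) (z : lam.Z) (x : Γ) : ℝ :=
  Pr lam.μ (fun ω => (lam.a ω, lam.z ω)) (x, z) / Pr lam.μ lam.z z

theorem Pr_beta_pair (lam : Law Γ) (x y : Γ) (c : lam.Z) :
    Pr lam.beta (fun u => (lam.a u.1, (lam.zl u, lam.a u.2))) (x, (c, y)) =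
      Pr lam.μ (fun ω => (lam.a ω, lam.z ω)) (x, c) *
        Pr lam.μ (fun ω => (lam.a ω, lam.z ω)) (y, c) / Pr lam.μ lam.z c := by
  rw [← Pr_cc lam.μ lam.z lam.a lam.a x y c]
  refine le_antisymm (Pr_le_of_imp lam.beta_isProb.nonneg fun u e => ?_)
    (Pr_le_of_imp lam.beta_isProb.nonneg fun u e => ?_)
  · simp only [Prod.mk.injEq] at e ⊢
    exact ⟨e.1, e.2.2, e.2.1⟩
  · simp only [Prod.mk.injEq] at e ⊢
    exact ⟨e.1, e.2.2, e.2.1⟩

theorem Pr_beta_snd (lam : Law Γ) (y : Γ) (c : lam.Z) :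
    Pr lam.beta (fun u => (lam.zl u, lam.a u.2)) (c, y) =
      Pr lam.μ (fun ω => (lam.a ω, lam.z ω)) (y, c) := by
  have h1 := (MP_cc_snd lam.prob lam.z).pr (fun ω => (lam.a ω, lam.z ω)) (y, c)
  rw [← h1]
  have h2 : Pr lam.beta (fun u => (lam.zl u, lam.a u.2)) (c, y) =
      Pr lam.beta (fun u => (lam.z u.2, lam.a u.2)) (c, y) := by
    refine Pr_congr_ae (fun u hu => ?_) _
    have : lam.z u.1 = lam.z u.2 := cc_ne_zero hu
    show (lam.z u.1, lam.a u.2) = _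
    rw [this]
  rw [h2]
  refine le_antisymm (Pr_le_of_imp lam.beta_isProb.nonneg fun u e => ?_)
    (Pr_le_of_imp lam.beta_isProb.nonneg fun u e => ?_)
  · simp only [Prod.mk.injEq] at e ⊢
    exact ⟨e.2, e.1⟩
  · simp only [Prod.mk.injEq] at e ⊢
    exact ⟨e.2, e.1⟩

theorem MP_law {L : Type*} [Fintype L] (μ : Ω' → ℝ) (ξ : Ω' → L) : MP μ (Pr μ ξ) ξ := by
  classical
  intro f
  exact sum_fiber' μ ξ f univ fun ω => mem_univ _

theorem law_isProb {L : Type*} [Fintype L] {μ : Ω' → ℝ} (hμ : IsProb μ) (ξ : Ω' → L) :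
    IsProb (Pr μ ξ) := by
  refine ⟨fun u => Pr_nonneg hμ ξ u, ?_⟩
  have := MP_law μ ξ (fun _ => 1)
  simp only [mul_one] at this
  rw [← this, hμ.sum]

/-- the cost of the letter under a law of density at most `2` -/
theorem cost_bound (lam : Law Γ) {μ' μ1 : Ω' → ℝ} (hμ : IsProb μ') (h1 : IsProb μ1)
    {ξ : Ω' → lam.Lt} (hac : ∀ ω, 0 < μ' ω → 0 < lam.beta (ξ ω)) (hle : ∀ ω, μ1 ω ≤ 2 * μ' ω)
    {D1 : ℝ} (hD : Dv μ' ξ lam.beta ≤ D1) :
    0 ≤ D1 ∧ ∑ ω, μ1 ω * (- log (rf lam (lam.zl (ξ ω)) (lam.a (ξ ω).1))) -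
      Hc μ1 (fun ω => lam.a (ξ ω).1) (fun ω => (lam.zl (ξ ω), lam.a (ξ ω).2)) ≤
      log 2 + 2 * (D1 + exp (-1)) := by
  classical
  have hb := lam.beta_isProb
  set Q : lam.Lt → ℝ := Pr μ1 ξ with hQ
  set P' : lam.Lt → ℝ := Pr μ' ξ with hP'
  have hQP : IsProb Q := law_isProb h1 ξ
  have hPP : IsProb P' := law_isProb hμ ξ
  have hACP : AbC P' lam.beta := by
    intro u hu
    rw [hP']
    unfold Pr
    refine sum_eq_zero fun ω _ => ?_
    split_ifs with h
    · by_contra h2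
      have := hac ω ((hμ.nonneg ω).lt_of_ne fun e => h2 e.symm)
      rw [h, hu] at this
      exact lt_irrefl _ this
    · rfl
  have hQle : ∀ u, Q u ≤ 2 * P' u := by
    intro u
    rw [hQ, hP']
    unfold Pr
    rw [mul_sum]
    refine sum_le_sum fun ω _ => ?_
    split_ifs
    · exact hle ω
    · simp
  have hACQ : AbC Q lam.beta := fun u hu =>
    le_antisymm (by have := hQle u; rwa [hACP u hu, mul_zero] at this) (hQP.nonneg u)
  have hDv : Dv μ' ξ lam.beta = KL P' lam.beta := by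
    unfold Dv KL
    exact MP_law μ' ξ (fun u => log (P' u / lam.beta u))
  have hKL0 : 0 ≤ KL P' lam.beta := KL_nonneg hPP hb hACP
  refine ⟨hKL0.trans (hDv ▸ hD), ?_⟩
  have hKLQ : KL Q lam.beta ≤ log 2 + 2 * (D1 + exp (-1)) := by
    have := dl_le_of_le (s := univ) (P := Q) (P' := P') (R := lam.beta) (c := 2) (by norm_num)
      (fun x _ => hQP.nonneg x) (fun x _ => hPP.nonneg x) (fun x _ => hb.nonneg x)
      hQP.sum hb.sum.le (fun x _ => hACP x) (fun x _ => hQle x)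
    rw [KL_eq_dl]
    rw [← KL_eq_dl P', ← hDv] at this
    linarith
  refine le_trans ?_ hKLQ
  -- the chain rule
  have hch := KLv_pair hQP hb hACQ (fun u : lam.Lt => lam.a u.1)
    (fun u : lam.Lt => (lam.zl u, lam.a u.2))
  have hY0 := KLv_nonneg hQP hb hACQ (fun u : lam.Lt => (lam.zl u, lam.a u.2))
  have hXY := KLv_le_KL hQP hb hACQ (fun u : lam.Lt => (lam.a u.1, (lam.zl u, lam.a u.2)))
  -- transfer to `Lt`
  have e1 : ∑ ω, μ1 ω * (- log (rf lam (lam.zl (ξ ω)) (lam.a (ξ ω).1))) =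
      ∑ u, Q u * (- log (rf lam (lam.zl u) (lam.a u.1))) :=
    MP_law μ1 ξ (fun u => - log (rf lam (lam.zl u) (lam.a u.1)))
  have e2 : Hc μ1 (fun ω => lam.a (ξ ω).1) (fun ω => (lam.zl (ξ ω), lam.a (ξ ω).2)) =
      Hc Q (fun u => lam.a u.1) (fun u => (lam.zl u, lam.a u.2)) :=
    (MP_law μ1 ξ).hc (fun u => lam.a u.1) (fun u => (lam.zl u, lam.a u.2))
  rw [e1, e2, Hc_eq_sum hQP, ← sum_sub_distrib]
  have e3 : ∑ u, (Q u * (- log (rf lam (lam.zl u) (lam.a u.1))) -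
      Q u * (- log (Pr Q (fun u => (lam.a u.1, (lam.zl u, lam.a u.2)))
        (lam.a u.1, (lam.zl u, lam.a u.2)) / Pr Q (fun u => (lam.zl u, lam.a u.2))
          (lam.zl u, lam.a u.2)))) =
      ∑ u, Q u * log ((Pr Q (fun u => (lam.a u.1, (lam.zl u, lam.a u.2)))
        (lam.a u.1, (lam.zl u, lam.a u.2)) / Pr Q (fun u => (lam.zl u, lam.a u.2))
          (lam.zl u, lam.a u.2)) /
        (Pr lam.beta (fun u => (lam.a u.1, (lam.zl u, lam.a u.2)))
        (lam.a u.1, (lam.zl u, lam.a u.2)) / Pr lam.beta (fun u => (lam.zl u, lam.a u.2))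
          (lam.zl u, lam.a u.2))) := by
    refine sum_congr rfl fun u _ => ?_
    rcases (hQP.nonneg u).eq_or_lt with h0 | h0
    · rw [← h0]; simp
    · have q1 := Pr_pos hQP (fun u : lam.Lt => (lam.a u.1, (lam.zl u, lam.a u.2))) h0
      have q2 := Pr_pos hQP (fun u : lam.Lt => (lam.zl u, lam.a u.2)) h0
      have b1 := Pr_pos_of_AC hb hACQ (fun u : lam.Lt => (lam.a u.1, (lam.zl u, lam.a u.2))) h0.ne'
      have b2 := Pr_pos_of_AC hb hACQ (fun u : lam.Lt => (lam.zl u, lam.a u.2)) h0.ne'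
      have e4 : Pr lam.beta (fun u => (lam.a u.1, (lam.zl u, lam.a u.2)))
          (lam.a u.1, (lam.zl u, lam.a u.2)) / Pr lam.beta (fun u => (lam.zl u, lam.a u.2))
          (lam.zl u, lam.a u.2) = rf lam (lam.zl u) (lam.a u.1) := by
        rw [Pr_beta_snd] at b2 ⊢
        rw [Pr_beta_pair]
        unfold rf
        field_simp
      rw [← e4, log_div (div_pos q1 q2).ne' (div_pos b1 b2).ne']
      ring
  rw [e3]
  linarith

end cost

/-! ## The law of the good letters -/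

open Classical in
/-- **AD-9a** -/
theorem good_law {Γ : Type} [AddCommGroup Γ] (A : Finset Γ) (lam : Law Γ) {Ω' : Type}
    [Fintype Ω'] (μ' : Ω' → ℝ) (ξ : Ω' → lam.Lt) (T : Ω' → Γ) (Hν κ ι δ D1 R : ℝ) (M : ℕ)
    (h : IsLoc lam.N lam.zl lam.beta μ' ξ T Hν κ ι δ D1) (hA : ∀ ω, lam.a ω ∈ A)
    (hR : log A.card ≤ R) (hδ : 28 * δ ≤ 1 / 2) (hδR : (28 * δ) ^ M * R ≤ 1) :
    ∃ μ1 : Ω' → ℝ, IsProb μ1 ∧ (∀ ω, 0 < μ1 ω → 0 < μ' ω) ∧ 0 ≤ D1 ∧ 0 ≤ ι ∧ 0 ≤ R ∧
      ∑ ω, μ1 ω * (- log (rf lam (lam.zl (ξ ω)) (lam.a (ξ ω).1))) -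
        Hc μ1 (fun ω => lam.a (ξ ω).1) (fun ω => (lam.zl (ξ ω), lam.a (ξ ω).2)) ≤
          28 * (D1 + 1) ∧
      Hc (px μ1 (px (pw (ι := Fin M) μ') (pw (ι := Fin M) μ')))
          (fun w => lam.a (ξ w.1).1 + (sm T w.2.1 - sm T w.2.2))
          (fun w => (lam.zl (ξ w.1), lam.a (ξ w.1).2)) -
        H (px (pw (ι := Fin M) μ') (pw (ι := Fin M) μ')) (fun w => sm T w.1 - sm T w.2) ≤
          28 * (ι + 1) := by
  have hμ := h.prob
  have hι : 0 ≤ ι := (I_nonneg hμ _ _ _).trans h.abs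
  have hδ0 : 0 ≤ δ := (I_nonneg hμ _ _ _).trans h.esc
  have hPξ : ∀ ω, 0 < μ' ω → 0 < Pr μ' ξ (ξ ω) := fun ω h0 => Pr_pos hμ ξ h0
  -- the good letters
  set k1 : Ω' → ℝ := fun ω => K1 μ' ξ T (ξ ω) with hk1
  set k2 : Ω' → ℝ := fun ω => K2 μ' ξ T lam.N lam.zl (ξ ω) with hk2
  have m1 := markov hμ (f := k1) (fun ω h0 => K1_nonneg hμ (hPξ ω h0)) (c := δ)
    ((sum_K1 (T := T) hμ).trans_le h.esc)
  have m2 := markov hμ (f := k2) (fun ω h0 => K2_nonneg hμ (hPξ ω h0)) (c := ι)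
    ((sum_K2 (T := T) hμ).trans_le h.abs)
  set Gd : Ω' → Prop := fun ω => k1 ω ≤ 4 * δ ∧ k2 ω ≤ 4 * ι with hGd
  have hPE : 1 / 2 ≤ PE μ' Gd := by
    rw [PE_eq]
    have e : ∀ ω, μ' ω ≤ (if Gd ω then μ' ω else 0) + (if 4 * δ < k1 ω then μ' ω else 0) +
        (if 4 * ι < k2 ω then μ' ω else 0) := by
      intro ω
      have h0 := hμ.nonneg ω
      by_cases hG : Gd ω
      · rw [if_pos hG]
        split_ifs <;> linarith
      · rw [if_neg hG]
        rw [hGd] at hG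
        simp only [not_and_or, not_le] at hG
        rcases hG with hG | hG
        · rw [if_pos hG]
          split_ifs <;> linarith
        · rw [if_pos hG]
          split_ifs <;> linarith
    have e2 := sum_le_sum fun ω (_ : ω ∈ univ) => e ω
    rw [hμ.sum, sum_add_distrib, sum_add_distrib] at e2
    linarith
  have hPE0 : 0 < PE μ' Gd := by linarith
  set μ1 : Ω' → ℝ := cE μ' Gd with hμ1
  have h1 : IsProb μ1 := cnd_isProb hμ hPE0
  have hle : ∀ ω, μ1 ω ≤ 2 * μ' ω := by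
    intro ω
    have h0 := hμ.nonneg ω
    rw [hμ1]
    unfold cE cnd
    split_ifs
    · rw [div_le_iff₀ hPE0]
      nlinarith
    · linarith
  have hpos : ∀ ω, 0 < μ1 ω → 0 < μ' ω := fun ω h0 => by
    have := hle ω
    linarith
  have hgood : ∀ ω, 0 < μ1 ω → Gd ω := fun ω h0 => by
    have := cnd_pos h0
    exact of_eq_true this
  obtain ⟨hD0, hcost⟩ := cost_bound lam hμ h1 h.ac hle h.div
  -- `A` is nonempty
  obtain ⟨ω0, -, hω0⟩ : ∃ ω ∈ (univ : Finset Ω'), 0 < μ1 ω := by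
    by_contra hn
    push Not at hn
    have : ∑ ω, μ1 ω ≤ 0 := sum_nonpos hn
    rw [h1.sum] at this
    linarith
  have hA0 : 0 < A.card := card_pos.mpr ⟨_, hA (ξ ω0).1⟩
  have hR0 : 0 ≤ R := by
    have : (1 : ℝ) ≤ A.card := by exact_mod_cast hA0
    exact (log_nonneg this).trans hR
  have hl2 : log 2 ≤ 0.7 := by
    have := log_two_lt_d9
    linarith
  have hl20 : 0 ≤ log 2 := log_nonneg (by norm_num)
  have hl4 : log 4 = 2 * log 2 := by
    rw [show (4 : ℝ) = 2 ^ (2 : ℕ) by norm_num, log_pow]; norm_num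
  have he : exp (-1) ≤ 1 := by
    rw [← exp_zero]; exact exp_le_exp.mpr (by norm_num)
  refine ⟨μ1, h1, hpos, hD0, hι, hR0, by linarith, ?_⟩
  have hN : ∀ ω, lam.N (ξ ω) = lam.a (ξ ω).1 - lam.a (ξ ω).2 := fun ω => rfl
  have hdif : ∀ ω, lam.N (ξ ω) ∈ dif A := fun ω => mem_dif (hA _) (hA _)
  have hnoise := noise_bound (T := T) (N := lam.N) (zl := lam.zl) hμ (Un_subP A) h1 hN
    (fun ω => Un_pos (hdif ω)) M (B := 28 * (ι + 1)) ?_
  · exact hnoise
  · intro ω h0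
    obtain ⟨g1, g2⟩ := hgood ω h0
    have hu := hPξ ω (hpos ω h0)
    have hE := Em_le (T := T) hμ (Rz_subP hμ ξ T lam.N lam.zl (lam.zl (ξ ω))) (Un_subP A)
      (Un_pos (hdif ω)) (p := pu μ' ξ T (ξ ω)) (pu_nonneg hμ (ξ ω)) (pu_sum hμ hu)
      (fun x hx => pu_ac hμ (ξ ω) hx) (fun x hx => Rz_ac hμ hu hx) (κ1 := 4 * δ) (κ2 := 4 * ι)
      (d := 28 * δ) (B0 := 2 * R) g1 g2 (by linarith) (by linarith) hδ (by linarith) (by linarith)
      ((log_Un (hdif ω)).trans (by linarith)) M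
    refine hE.trans ?_
    have h3 : (28 * δ) ^ M * (2 * R) ≤ 2 := by
      have : (28 * δ) ^ M * (2 * R) = 2 * ((28 * δ) ^ M * R) := by ring
      rw [this]; linarith
    rw [hl4]
    linarith

end Vale.Agent.P091.AD.H208
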