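import Vale.Agent.P091.AD.H208.Lift

/-!
# P091, AD block, row AD-9a (helper208): one letter
-/

set_option autoImplicit false

open Finset Real
open Vale.Agent.P065.Ent

noncomputable section

namespace Vale.Agent.P091.AD.H208

open Vale.Agent.P091.AD Vale.Agent.P091.AD.H356

/-! ## The points where the conditional law is not small -/

theorem near_sum {ι : Type*} {s : Finset ι} {ν p R : ι → ℝ} (hν : ∀ x ∈ s, 0 ≤ ν x)
    (hp : ∀ x ∈ s, 0 ≤ p x) (hR : ∀ x ∈ s, 0 ≤ R x) (hac : AC s p R) (hp1 : ∑ x ∈ s, p x ≤ 1)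
    (hR1 : ∑ x ∈ s, R x ≤ 1) {κ2 : ℝ} (h2 : dl s p R ≤ κ2) :
    ∑ x ∈ s, (if 2 * p x < ν x then 0 else ν x * log (2 * ν x / R x)) ≤
      2 * log 4 + 2 * (κ2 + exp (-1)) := by
  have hl4 : 0 ≤ log 4 := log_nonneg (by norm_num)
  have h1 : ∀ x ∈ s, (if 2 * p x < ν x then 0 else ν x * log (2 * ν x / R x)) ≤
      2 * log 4 * p x + 2 * (p x * log (p x / R x) + exp (-1) * R x) := by
    intro x hx
    have a1 := hν x hx
    have a2 := hp x hx
    have a3 := hR x hx
    have a4 : 0 ≤ p x * log (p x / R x) + exp (-1) * R x := by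
      have := mul_log_le_exp a2 a3
      have h4 : log (R x / p x) = - log (p x / R x) := by rw [← log_inv, inv_div]
      rw [h4] at this
      linarith
    have a5 : 0 ≤ 2 * log 4 * p x := by positivity
    split_ifs with hb
    · linarith
    · rw [not_lt] at hb
      rcases a1.eq_or_lt with h0 | h0
      · rw [← h0]; simp only [zero_mul]; linarith
      · have b1 : 0 < p x := by linarith
        have b2 : 0 < R x := a3.lt_of_ne fun h => b1.ne' (hac x hx h.symm)
        have b3 : log (2 * ν x / R x) ≤ log (4 * (p x / R x)) := by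
          refine log_le_log (by positivity) ?_
          rw [← mul_div_assoc]
          exact div_le_div_of_nonneg_right (by linarith) b2.le
        have b4 : log (4 * (p x / R x)) = log 4 + log (p x / R x) :=
          log_mul (by norm_num) (by positivity)
        rcases le_total 0 (log (4 * (p x / R x))) with h3 | h3
        · have c1 : ν x * log (2 * ν x / R x) ≤ ν x * log (4 * (p x / R x)) :=
            mul_le_mul_of_nonneg_left b3 a1
          have c2 : ν x * log (4 * (p x / R x)) ≤ 2 * p x * log (4 * (p x / R x)) :=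
            mul_le_mul_of_nonneg_right hb h3
          have c3 : 0 ≤ exp (-1) * R x := by positivity
          rw [b4] at c1 c2
          calc _ ≤ _ := c1
            _ ≤ _ := c2
            _ = 2 * log 4 * p x + 2 * (p x * log (p x / R x)) := by ring
            _ ≤ _ := by linarith
        · have c1 : ν x * log (2 * ν x / R x) ≤ 0 :=
            mul_nonpos_of_nonneg_of_nonpos a1 (b3.trans h3)
          linarith
  refine (sum_le_sum h1).trans ?_
  rw [sum_add_distrib, ← mul_sum, ← mul_sum, sum_add_distrib, ← mul_sum]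
  unfold dl at h2
  have e1 : 0 ≤ exp (-1) := (exp_pos _).le
  have e2 : 2 * log 4 * ∑ x ∈ s, p x ≤ 2 * log 4 * 1 :=
    mul_le_mul_of_nonneg_left hp1 (by positivity)
  have e3 : exp (-1) * ∑ x ∈ s, R x ≤ exp (-1) * 1 := mul_le_mul_of_nonneg_left hR1 e1
  linarith

/-! ## The bound for one letter -/

section letter
variable {Γ Ω' : Type*} [AddCommGroup Γ] [Fintype Ω'] {μ' : Ω' → ℝ} {T : Ω' → Γ} {R U : Γ → ℝ}

theorem Em_zero_le (hμ : IsProb μ') {N : Γ} (hN : 0 < U N) {B0 : ℝ}
    (hB : - log (U N) ≤ B0) : Em μ' T R U 0 N ≤ B0 := by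
  have hpw : IsProb (pw (ι := Fin 0) μ') := pw_isProb hμ
  have h1 : ∀ u : Fin 0 → Ω', pw μ' u * log (Pr (pw (ι := Fin 0) μ') (sm T) (sm T u) /
      Fm μ' T R U 0 (sm T u + N)) ≤ pw μ' u * B0 := by
    intro u
    rcases (hpw.nonneg u).eq_or_lt with h0 | h0
    · rw [← h0]; simp
    · refine mul_le_mul_of_nonneg_left ?_ h0.le
      have e : sm T u = 0 := by unfold sm; simp
      show log (_ / U (sm T u + N)) ≤ B0
      have h2 := Pr_pos hpw (sm T) h0
      have h3 := Pr_le_one hpw (sm T) (sm T u)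
      rw [e] at h2 h3 ⊢
      rw [zero_add, log_div h2.ne' hN.ne']
      have := log_nonpos h2.le h3
      linarith
  unfold Em
  refine (sum_le_sum fun u _ => h1 u).trans (le_of_eq ?_)
  rw [← sum_mul, hpw.sum, one_mul]

open Classical in
/-- the recursion for a letter with conditional law `p` of `T` -/
theorem Em_step (hμ : IsProb μ') (hR : SubP R) (hU : SubP U) {N : Γ} (hN : 0 < U N)
    {p : Γ → ℝ} (hp : ∀ x, 0 ≤ p x) (hp1 : ∑ x ∈ univ.image T, p x = 1)
    (hacν : ∀ x, Pr μ' T x = 0 → p x = 0) (hacR : ∀ x, R (x + N) = 0 → p x = 0)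
    {κ1 κ2 d : ℝ} (h1 : dl (univ.image T) p (Pr μ' T) ≤ κ1)
    (h2 : dl (univ.image T) p (fun x => R (x + N)) ≤ κ2) (hd : 7 * κ1 ≤ d) (M : ℕ) {B : ℝ}
    (hB : 0 ≤ B) (hE : Em μ' T R U M N ≤ B) :
    Em μ' T R U (M + 1) N ≤ d * (log 2 + B) + (2 * log 4 + 2 * (κ2 + exp (-1))) := by
  have hrec := Em_succ (T := T) hμ hR hU hN (fun ω => 2 * p (T ω) < Pr μ' T (T ω)) ?_ M
  swap
  · intro ω hω h0
    rw [not_lt] at hω
    have h3 := Pr_pos hμ T h0
    have h4 : 0 < p (T ω) := by linarith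
    exact (hR.1 _).lt_of_ne fun h => h4.ne' (hacR _ h.symm)
  refine hrec.trans ?_
  have hl2 : 0 ≤ log 2 := log_nonneg (by norm_num)
  -- pass to the values of `T`
  have e1 : ∀ ω, (if 2 * p (T ω) < Pr μ' T (T ω) then μ' ω * (log 2 + Em μ' T R U M N)
      else μ' ω * log (2 * Pr μ' T (T ω) / R (T ω + N))) =
      μ' ω * (fun x => if 2 * p x < Pr μ' T x then log 2 + Em μ' T R U M N
        else log (2 * Pr μ' T x / R (x + N))) (T ω) := by
    intro ω
    simp only
    split_ifs <;> rfl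
  rw [sum_congr rfl fun ω _ => e1 ω, sum_fiber μ' T (fun x => if 2 * p x < Pr μ' T x then
    log 2 + Em μ' T R U M N else log (2 * Pr μ' T x / R (x + N)))]
  have e2 : ∀ x ∈ univ.image T, Pr μ' T x * (if 2 * p x < Pr μ' T x then log 2 + Em μ' T R U M N
        else log (2 * Pr μ' T x / R (x + N))) ≤
      (if 2 * p x < Pr μ' T x then Pr μ' T x * (log 2 + B) else 0) +
      (if 2 * p x < Pr μ' T x then 0 else Pr μ' T x * log (2 * Pr μ' T x / R (x + N))) := by
    intro x _
    have := Pr_nonneg hμ T x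
    split_ifs
    · rw [add_zero]
      exact mul_le_mul_of_nonneg_left (by linarith) this
    · rw [zero_add]
  refine (sum_le_sum e2).trans ?_
  rw [sum_add_distrib]
  refine add_le_add ?_ ?_
  · rw [← sum_filter, ← sum_mul]
    refine mul_le_mul_of_nonneg_right ?_ (by linarith)
    have h3 := far_mass (s := univ.image T) (P := p) (ν := Pr μ' T) (fun x _ => hp x)
      (fun x _ => Pr_nonneg hμ T x) (fun x _ h => hacν x h) (by rw [sum_Pr hμ T, hp1])
      ((univ.image T).filter fun x => 2 * p x < Pr μ' T x) (filter_subset _ _)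
      (fun x hx => (mem_filter.mp hx).2.le)
    linarith
  · exact near_sum (fun x _ => Pr_nonneg hμ T x) (fun x _ => hp x) (fun x _ => hR.1 _)
      (fun x _ h => hacR x h) hp1.le ((hR.shift N).2 _) h2

open Classical in
/-- **the bound for one letter** -/
theorem Em_le (hμ : IsProb μ') (hR : SubP R) (hU : SubP U) {N : Γ} (hN : 0 < U N)
    {p : Γ → ℝ} (hp : ∀ x, 0 ≤ p x) (hp1 : ∑ x ∈ univ.image T, p x = 1)
    (hacν : ∀ x, Pr μ' T x = 0 → p x = 0) (hacR : ∀ x, R (x + N) = 0 → p x = 0)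
    {κ1 κ2 d B0 : ℝ} (h1 : dl (univ.image T) p (Pr μ' T) ≤ κ1)
    (h2 : dl (univ.image T) p (fun x => R (x + N)) ≤ κ2) (hd : 7 * κ1 ≤ d) (hd0 : 0 ≤ d)
    (hd2 : d ≤ 1 / 2) (hκ2 : 0 ≤ κ2) (hB0 : 0 ≤ B0) (hB : - log (U N) ≤ B0) (M : ℕ) :
    Em μ' T R U M N ≤ 2 * (log 2 + (2 * log 4 + 2 * (κ2 + exp (-1)))) + d ^ M * B0 := by
  have hl2 : 0 ≤ log 2 := log_nonneg (by norm_num)
  have hl4 : 0 ≤ log 4 := log_nonneg (by norm_num)
  have he : 0 ≤ exp (-1) := (exp_pos _).le
  set g := 2 * log 4 + 2 * (κ2 + exp (-1)) with hg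
  have hg0 : 0 ≤ g := by rw [hg]; positivity
  induction M with
  | zero =>
    have := Em_zero_le (T := T) (R := R) hμ hN hB
    rw [pow_zero, one_mul]
    linarith
  | succ M ih =>
    have h3 : 0 ≤ 2 * (log 2 + g) + d ^ M * B0 := by positivity
    have h4 := Em_step (T := T) hμ hR hU hN hp hp1 hacν hacR h1 h2 hd M h3 ih
    have h5 : d * (log 2 + (2 * (log 2 + g) + d ^ M * B0)) =
        d * (log 2 + 2 * (log 2 + g)) + d ^ (M + 1) * B0 := by rw [pow_succ]; ring
    have h6 : d * (log 2 + 2 * (log 2 + g)) ≤ (1 / 2) * (log 2 + 2 * (log 2 + g)) :=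
      mul_le_mul_of_nonneg_right hd2 (by positivity)
    rw [h5] at h4
    linarith

/-- the noise of one letter: `sm T v - sm T v'` -/
theorem noise_letter (hμ : IsProb μ') (hR : SubP R) (hU : SubP U) {N : Γ} (hN : 0 < U N) (M : ℕ) :
    ∑ w : (Fin M → Ω') × (Fin M → Ω'), px (pw μ') (pw μ') w *
      log (Pr (px (pw (ι := Fin M) μ') (pw (ι := Fin M) μ')) (fun w => sm T w.1 - sm T w.2)
          (sm T w.1 - sm T w.2) /
        ∑ v : Fin M → Ω', pw μ' v * Fm μ' T R U M ((sm T w.1 - sm T w.2) + sm T v + N)) ≤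
      Em μ' T R U M N := by
  classical
  have hpw : IsProb (pw (ι := Fin M) μ') := pw_isProb hμ
  have hFs := Fm_subP (T := T) hμ hR hU M
  set p : (Fin M → Ω') × (Fin M → Ω') → ℝ := px (pw μ') (pw μ') with hp
  have hpP : IsProb p := px_isProb hpw hpw
  set X : (Fin M → Ω') × (Fin M → Ω') → Γ := fun w => sm T w.1 - sm T w.2 with hX
  have hpos : ∀ w, 0 < p w → 0 < pw μ' w.1 ∧ 0 < pw μ' w.2 := by
    intro w hw
    constructor
    · refine (hpw.nonneg _).lt_of_ne fun h => ?_
      rw [hp] at hw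
      unfold px at hw
      rw [← h, zero_mul] at hw
      exact lt_irrefl _ hw
    · refine (hpw.nonneg _).lt_of_ne fun h => ?_
      rw [hp] at hw
      unfold px at hw
      rw [← h, mul_zero] at hw
      exact lt_irrefl _ hw
  set r : (Fin M → Ω') × (Fin M → Ω') → ℝ := fun w =>
      pw μ' w.2 * (Fm μ' T R U M (sm T w.1 + N) * pw μ' w.1 /
        Pr (pw (ι := Fin M) μ') (sm T) (sm T w.1)) with hr
  have hr0 : ∀ w, 0 ≤ r w := by
    intro w
    rw [hr]
    have h1 := hpw.nonneg w.1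
    have h2 := hFs.1 (sm T w.1 + N)
    have h3 := hpw.nonneg w.2
    have h4 := Pr_nonneg hpw (sm T) (sm T w.1)
    positivity
  have hrpos : ∀ w, 0 < p w → 0 < r w := by
    intro w hw
    obtain ⟨h1, h3⟩ := hpos w hw
    rw [hr]
    have h2 := Fm_pos (T := T) hμ hR hU hN M w.1 h1
    have h4 := Pr_pos hpw (sm T) h1
    positivity
  have hF : ∀ x, Pr r X x ≤ ∑ v : Fin M → Ω', pw μ' v * Fm μ' T R U M (x + sm T v + N) := by
    intro x
    have h1 : ∀ w, (if X w = x then r w else 0) =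
        (pw μ' w.2 * (if sm T w.1 = x + sm T w.2 then
          Fm μ' T R U M (x + sm T w.2 + N) * pw μ' w.1 /
            Pr (pw (ι := Fin M) μ') (sm T) (x + sm T w.2) else 0)) := by
      intro w
      by_cases h : X w = x
      · have e2 : sm T w.1 = x + sm T w.2 := by rw [← h, hX]; simp only; abel
        rw [if_pos h, if_pos e2, ← e2]
      · have e2 : ¬ sm T w.1 = x + sm T w.2 := fun e => h (by rw [hX]; simp only; rw [e]; abel)
        rw [if_neg h, if_neg e2]
        simp
    have h2 : Pr r X x = ∑ w, (if X w = x then r w else 0) := by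
      unfold Pr
      exact sum_congr rfl fun ω _ => by split_ifs <;> rfl
    rw [h2, sum_congr rfl fun w _ => h1 w, Fintype.sum_prod_type_right]
    refine sum_le_sum fun v _ => ?_
    simp only
    rw [← mul_sum]
    refine mul_le_mul_of_nonneg_left ?_ (hpw.nonneg v)
    exact sum_group_le hpw.nonneg (sm T) (x + sm T v) (hFs.1 _)
  refine (lift X (fun x => ∑ v : Fin M → Ω', pw μ' v * Fm μ' T R U M (x + sm T v + N))
    hpP.nonneg hr0 hrpos fun w _ => hF _).trans (le_of_eq ?_)
  rw [Fintype.sum_prod_type]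
  unfold Em
  refine sum_congr rfl fun v _ => ?_
  have e3 : pw μ' v * log (Pr (pw (ι := Fin M) μ') (sm T) (sm T v) / Fm μ' T R U M (sm T v + N)) =
      ∑ v' : Fin M → Ω', pw μ' v' * (pw μ' v *
        log (Pr (pw (ι := Fin M) μ') (sm T) (sm T v) / Fm μ' T R U M (sm T v + N))) := by
    rw [← sum_mul, hpw.sum, one_mul]
  rw [e3]
  refine sum_congr rfl fun v' _ => ?_
  rcases (hpP.nonneg (v, v')).eq_or_lt with h0 | h0
  · rw [← h0, zero_mul]
    have h1 : pw μ' v * pw μ' v' = 0 := h0.symm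
    rw [← mul_assoc, mul_comm (pw μ' v'), h1]; ring
  · obtain ⟨h1, h3⟩ := hpos _ h0
    simp only at h1 h3
    have h2 := Fm_pos (T := T) hμ hR hU hN M v h1
    have h4 := Pr_pos hpw (sm T) h1
    have e4 : p (v, v') / r (v, v') =
        Pr (pw (ι := Fin M) μ') (sm T) (sm T v) / Fm μ' T R U M (sm T v + N) := by
      rw [hp, hr]
      unfold px
      simp only
      field_simp
    rw [e4, hp]
    unfold px
    simp only
    ring

end letter

end Vale.Agent.P091.AD.H208
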