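import Vale.Agent.P091.AD.H356.Prod
import Vale.Agent.P091.AD.H921.Div

/-!
# P091, AD block, row AD-9a (helper208): the lift lemma and the iterated reference

`lift`: the divergence of the law of `X` from a reference `F` is at most the divergence of the
weights upstairs.  `Fm`: the reference for `M` letters; `Em_succ`: the recursion.
-/

set_option autoImplicit false

open Finset Real
open Vale.Agent.P065.Ent

noncomputable section

namespace Vale.Agent.P091.AD.H208

open Vale.Agent.P091.AD Vale.Agent.P091.AD.H356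

/-! ## Nonnegative weights -/

section nn
variable {Ω α β : Type*} [Fintype Ω]

theorem Pr_nn {r : Ω → ℝ} (hr : ∀ ω, 0 ≤ r ω) (X : Ω → α) (x : α) : 0 ≤ Pr r X x := by
  classical
  unfold Pr
  refine sum_nonneg fun ω _ => ?_
  split_ifs
  · exact hr ω
  · exact le_rfl

theorem le_Pr_nn {r : Ω → ℝ} (hr : ∀ ω, 0 ≤ r ω) (X : Ω → α) (ω : Ω) : r ω ≤ Pr r X (X ω) := by
  classical
  unfold Pr
  have h := single_le_sum (f := fun ω' => if X ω' = X ω then r ω' else 0)
    (fun ω' _ => by
      show 0 ≤ if X ω' = X ω then r ω' else 0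
      split_ifs
      · exact hr ω'
      · exact le_rfl) (mem_univ ω)
  simpa using h

theorem Pr_filter (r : Ω → ℝ) (X : Ω → α) [DecidableEq α] (x : α) :
    Pr r X x = ∑ ω ∈ univ.filter (fun ω => X ω = x), r ω := by
  unfold Pr
  rw [sum_filter]
  exact sum_congr rfl fun ω _ => by split_ifs <;> rfl

/-- **lift lemma** -/
theorem lift {p r : Ω → ℝ} (X : Ω → α) (F : α → ℝ) (hp : ∀ ω, 0 ≤ p ω) (hr : ∀ ω, 0 ≤ r ω)
    (hpr : ∀ ω, 0 < p ω → 0 < r ω) (hF : ∀ ω, 0 < p ω → Pr r X (X ω) ≤ F (X ω)) :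
    ∑ ω, p ω * log (Pr p X (X ω) / F (X ω)) ≤ ∑ ω, p ω * log (p ω / r ω) := by
  classical
  have h1 : ∀ ω, p ω * log (Pr p X (X ω) / F (X ω)) ≤
      p ω * log (Pr p X (X ω) / Pr r X (X ω)) := by
    intro ω
    rcases (hp ω).eq_or_lt with h0 | h0
    · rw [← h0]; simp
    · have q1 : 0 < Pr p X (X ω) := h0.trans_le (le_Pr_nn hp X ω)
      have q2 : 0 < Pr r X (X ω) := (hpr ω h0).trans_le (le_Pr_nn hr X ω)
      have q3 := hF ω h0
      refine mul_le_mul_of_nonneg_left (log_le_log (div_pos q1 (q2.trans_le q3)) ?_) h0.le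
      exact div_le_div_of_nonneg_left q1.le q2 q3
  refine (sum_le_sum fun ω _ => h1 ω).trans ?_
  rw [sum_fiber p X (fun x => log (Pr p X x / Pr r X x))]
  have h2 : ∀ x ∈ univ.image X, Pr p X x * log (Pr p X x / Pr r X x) ≤
      ∑ ω ∈ univ.filter (fun ω => X ω = x), p ω * log (p ω / r ω) := by
    intro x _
    rw [Pr_filter, Pr_filter]
    refine log_sum (fun ω _ => hp ω) (fun ω _ => hr ω) fun ω _ h => ?_
    by_contra h3
    have := hpr ω ((hp ω).lt_of_ne fun e => h3 e.symm)
    rw [h] at this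
    exact lt_irrefl _ this
  refine (sum_le_sum h2).trans (le_of_eq ?_)
  exact sum_fiberwise_of_maps_to (fun ω _ => mem_image_of_mem X (mem_univ ω)) _

end nn

/-! ## Sub-probability references -/

section subp
variable {Γ : Type*} [AddCommGroup Γ]

/-- a sub-probability vector on the group -/
def SubP (F : Γ → ℝ) : Prop := (∀ x, 0 ≤ F x) ∧ ∀ S : Finset Γ, ∑ x ∈ S, F x ≤ 1

theorem SubP.shift {F : Γ → ℝ} (h : SubP F) (c : Γ) : SubP (fun x => F (x + c)) := by
  classical
  refine ⟨fun x => h.1 _, fun S => ?_⟩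
  have h2 := h.2 (S.image fun x => x + c)
  rw [sum_image] at h2
  · exact h2
  · intro x _ y _ e
    exact add_right_cancel e

theorem SubP.shift' {F : Γ → ℝ} (h : SubP F) (c : Γ) : SubP (fun x => F (x - c)) := by
  have := h.shift (-c)
  simpa only [← sub_eq_add_neg] using this

omit [AddCommGroup Γ] in
theorem SubP.avg {Ω : Type*} [Fintype Ω] {p : Ω → ℝ} (hp : ∀ ω, 0 ≤ p ω) (hp1 : ∑ ω, p ω ≤ 1)
    {F : Ω → Γ → ℝ} (h : ∀ ω, SubP (F ω)) : SubP (fun x => ∑ ω, p ω * F ω x) := by
  refine ⟨fun x => sum_nonneg fun ω _ => mul_nonneg (hp ω) ((h ω).1 x), fun S => ?_⟩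
  rw [sum_comm]
  refine le_trans (sum_le_sum fun ω _ => ?_) hp1
  rw [← mul_sum]
  exact mul_le_of_le_one_right (hp ω) ((h ω).2 S)

omit [AddCommGroup Γ] in
theorem SubP.half {F G : Γ → ℝ} (h : SubP F) (h' : SubP G) :
    SubP (fun x => (1 / 2) * F x + (1 / 2) * G x) := by
  refine ⟨fun x => ?_, fun S => ?_⟩
  · have := h.1 x
    have := h'.1 x
    positivity
  · rw [sum_add_distrib, ← mul_sum, ← mul_sum]
    have := h.2 S
    have := h'.2 S
    linarith

end subp

/-! ## The iterated reference -/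

section iter
variable {Γ Ω' : Type*} [AddCommGroup Γ] [Fintype Ω']

/-- the reference of `M` letters -/
def Fm (μ' : Ω' → ℝ) (T : Ω' → Γ) (R U : Γ → ℝ) : ℕ → Γ → ℝ
  | 0 => U
  | M + 1 => fun x => (1 / 2) * ∑ ω, μ' ω * Fm μ' T R U M (x - T ω) +
      (1 / 2) * ∑ u : Fin M → Ω', pw μ' u * R (x - sm T u)

variable {μ' : Ω' → ℝ} {T : Ω' → Γ} {R U : Γ → ℝ}

theorem Fm_subP (hμ : IsProb μ') (hR : SubP R) (hU : SubP U) (M : ℕ) :
    SubP (Fm μ' T R U M) := by
  induction M with
  | zero => exact hU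
  | succ M ih =>
    exact SubP.half (SubP.avg hμ.nonneg hμ.sum.le fun ω => ih.shift' (T ω))
      (SubP.avg (pw_isProb hμ).nonneg (pw_isProb hμ).sum.le fun u => hR.shift' (sm T u))

omit [Fintype Ω'] in
theorem sm_cons {M : ℕ} (T : Ω' → Γ) (x : Ω') (u : Fin M → Ω') :
    sm T (Fin.cons x u : Fin (M + 1) → Ω') = T x + sm T u := by
  unfold sm
  rw [Fin.sum_univ_succ]
  simp only [Fin.cons_zero, Fin.cons_succ]

theorem Fm_pos (hμ : IsProb μ') (hR : SubP R) (hU : SubP U) {N : Γ} (hN : 0 < U N) (M : ℕ) :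
    ∀ u : Fin M → Ω', 0 < pw μ' u → 0 < Fm μ' T R U M (sm T u + N) := by
  induction M with
  | zero =>
    intro u _
    have : sm T u = 0 := by unfold sm; simp
    rw [this, zero_add]
    exact hN
  | succ M ih =>
    intro u hu
    have e : u = Fin.cons (u 0) (Fin.tail u) := (Fin.cons_self_tail u).symm
    rw [e, pw_cons] at hu
    have h1 : 0 < μ' (u 0) := by
      refine (hμ.nonneg _).lt_of_ne fun h => ?_
      rw [← h, zero_mul] at hu
      exact lt_irrefl _ hu
    have h2 : 0 < pw μ' (Fin.tail u) := by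
      refine ((pw_isProb hμ).nonneg _).lt_of_ne fun h => ?_
      rw [← h, mul_zero] at hu
      exact lt_irrefl _ hu
    have h3 := ih (Fin.tail u) h2
    rw [e, sm_cons]
    have h4 : μ' (u 0) * Fm μ' T R U M (T (u 0) + sm T (Fin.tail u) + N - T (u 0)) ≤
        ∑ ω, μ' ω * Fm μ' T R U M (T (u 0) + sm T (Fin.tail u) + N - T ω) :=
      single_le_sum (f := fun ω => μ' ω * Fm μ' T R U M (T (u 0) + sm T (Fin.tail u) + N - T ω))
        (fun ω _ => mul_nonneg (hμ.nonneg ω) ((Fm_subP hμ hR hU M).1 _)) (mem_univ (u 0))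
    have e2 : T (u 0) + sm T (Fin.tail u) + N - T (u 0) = sm T (Fin.tail u) + N := by abel
    rw [e2] at h4
    have h5 : 0 < μ' (u 0) * Fm μ' T R U M (sm T (Fin.tail u) + N) := mul_pos h1 h3
    have h6 : 0 ≤ ∑ v : Fin M → Ω', pw μ' v * R (T (u 0) + sm T (Fin.tail u) + N - sm T v) :=
      sum_nonneg fun v _ => mul_nonneg ((pw_isProb hμ).nonneg v) (hR.1 _)
    show 0 < (1 / 2) * ∑ ω, μ' ω * Fm μ' T R U M (T (u 0) + sm T (Fin.tail u) + N - T ω) +
      (1 / 2) * ∑ v : Fin M → Ω', pw μ' v * R (T (u 0) + sm T (Fin.tail u) + N - sm T v)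
    linarith

variable (μ' T R U) in
/-- the divergence of the `M` letters shifted by `N` from the reference -/
def Em (M : ℕ) (N : Γ) : ℝ := ∑ u : Fin M → Ω', pw μ' u *
  log (Pr (pw (ι := Fin M) μ') (sm T) (sm T u) / Fm μ' T R U M (sm T u + N))

/-- grouping on one value: `∑_{Y = y} p · (c / Pr Y) ≤ c` -/
theorem sum_group_le {Ω α : Type*} [Fintype Ω] {p : Ω → ℝ} (hp : ∀ ω, 0 ≤ p ω) (Y : Ω → α) (y : α)
    [DecidableEq α] {c : ℝ} (hc : 0 ≤ c) :
    ∑ ω, (if Y ω = y then c * p ω / Pr p Y y else 0) ≤ c := by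
  have e : ∀ ω, (if Y ω = y then c * p ω / Pr p Y y else 0) =
      (c / Pr p Y y) * (if Y ω = y then p ω else 0) := by
    intro ω
    split_ifs
    · ring
    · ring
  rw [sum_congr rfl fun ω _ => e ω, ← mul_sum]
  have e2 : ∑ ω, (if Y ω = y then p ω else 0) = Pr p Y y := by
    unfold Pr
    exact sum_congr rfl fun ω _ => by split_ifs <;> rfl
  rw [e2]
  rcases (Pr_nn hp Y y).eq_or_lt with h0 | h0
  · rw [← h0]; simpa using hc
  · rw [div_mul_cancel₀ _ h0.ne']

theorem Em_succ (hμ : IsProb μ') (hR : SubP R) (hU : SubP U) {N : Γ} (hN : 0 < U N)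
    (bad : Ω' → Prop) [DecidablePred bad] (hgood : ∀ ω, ¬ bad ω → 0 < μ' ω → 0 < R (T ω + N))
    (M : ℕ) : Em μ' T R U (M + 1) N ≤
      ∑ ω, if bad ω then μ' ω * (log 2 + Em μ' T R U M N)
        else μ' ω * log (2 * Pr μ' T (T ω) / R (T ω + N)) := by
  classical
  have hpw : IsProb (pw (ι := Fin M) μ') := pw_isProb hμ
  have hFs := Fm_subP (T := T) hμ hR hU M
  set p : Ω' × (Fin M → Ω') → ℝ := px μ' (pw μ') with hp
  set X : Ω' × (Fin M → Ω') → Γ := fun w => T w.1 + sm T w.2 with hX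
  have hpP : IsProb p := px_isProb hμ hpw
  have hmp := MP_cons (n := M) μ'
  have hX2 : (fun w : Ω' × (Fin M → Ω') => sm T (Fin.cons w.1 w.2 : Fin (M + 1) → Ω')) = X := by
    funext w
    exact sm_cons T w.1 w.2
  have hPr : ∀ x, Pr (pw (ι := Fin (M + 1)) μ') (sm T) x = Pr p X x := by
    intro x
    have := hmp.pr (sm T) x
    rw [hX2] at this
    exact this.symm
  -- pass to the product space
  have e1 : Em μ' T R U (M + 1) N =
      ∑ w, p w * log (Pr p X (X w) / Fm μ' T R U (M + 1) (X w + N)) := by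
    unfold Em
    have h := hmp (fun u => log (Pr (pw (ι := Fin (M + 1)) μ') (sm T) (sm T u) /
      Fm μ' T R U (M + 1) (sm T u + N)))
    rw [← h]
    refine sum_congr rfl fun w _ => ?_
    rw [hPr, sm_cons]
  -- the lifted reference
  set r : Ω' × (Fin M → Ω') → ℝ := fun w => if bad w.1 then
      (1 / 2) * (μ' w.1 * (Fm μ' T R U M (sm T w.2 + N) * pw μ' w.2 /
        Pr (pw (ι := Fin M) μ') (sm T) (sm T w.2)))
    else (1 / 2) * (pw μ' w.2 * (R (T w.1 + N) * μ' w.1 / Pr μ' T (T w.1))) with hr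
  have hr0 : ∀ w, 0 ≤ r w := by
    intro w
    rw [hr]
    simp only
    split_ifs
    · have h1 := hμ.nonneg w.1
      have h2 := hFs.1 (sm T w.2 + N)
      have h3 := hpw.nonneg w.2
      have h4 := Pr_nonneg hpw (sm T) (sm T w.2)
      positivity
    · have h1 := hμ.nonneg w.1
      have h2 := hR.1 (T w.1 + N)
      have h3 := hpw.nonneg w.2
      have h4 := Pr_nonneg hμ T (T w.1)
      positivity
  have hpos : ∀ w, 0 < p w → 0 < μ' w.1 ∧ 0 < pw μ' w.2 := by
    intro w hw
    constructor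
    · refine (hμ.nonneg _).lt_of_ne fun h => ?_
      rw [hp] at hw
      unfold px at hw
      rw [← h, zero_mul] at hw
      exact lt_irrefl _ hw
    · refine (hpw.nonneg _).lt_of_ne fun h => ?_
      rw [hp] at hw
      unfold px at hw
      rw [← h, mul_zero] at hw
      exact lt_irrefl _ hw
  have hrpos : ∀ w, 0 < p w → 0 < r w := by
    intro w hw
    obtain ⟨h1, h3⟩ := hpos w hw
    rw [hr]
    simp only
    split_ifs with hb
    · have h2 := Fm_pos (T := T) hμ hR hU hN M w.2 h3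
      have h4 := Pr_pos hpw (sm T) h3
      positivity
    · have h2 := hgood w.1 hb h1
      have h4 := Pr_pos hμ T h1
      positivity
  have hF : ∀ x, Pr r X x ≤ Fm μ' T R U (M + 1) (x + N) := by
    intro x
    have h1 : ∀ w, (if X w = x then r w else 0) ≤
        (1 / 2) * (μ' w.1 * (if sm T w.2 = x - T w.1 then
          Fm μ' T R U M (x - T w.1 + N) * pw μ' w.2 /
            Pr (pw (ι := Fin M) μ') (sm T) (x - T w.1) else 0)) +
        (1 / 2) * (pw μ' w.2 * (if T w.1 = x - sm T w.2 then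
          R (x - sm T w.2 + N) * μ' w.1 / Pr μ' T (x - sm T w.2) else 0)) := by
      intro w
      by_cases h : X w = x
      · have e2 : sm T w.2 = x - T w.1 := by rw [← h, hX]; simp only; abel
        have e3 : T w.1 = x - sm T w.2 := by rw [← h, hX]; simp only; abel
        rw [if_pos h, if_pos e2, if_pos e3, ← e2, ← e3, hr]
        simp only
        have h1 := hμ.nonneg w.1
        have h3 := hpw.nonneg w.2
        split_ifs
        · have h2 := hR.1 (T w.1 + N)
          have h4 := Pr_nonneg hμ T (T w.1)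
          have : 0 ≤ (1 / 2) * (pw μ' w.2 * (R (T w.1 + N) * μ' w.1 / Pr μ' T (T w.1))) := by
            positivity
          linarith
        · have h2 := hFs.1 (sm T w.2 + N)
          have h4 := Pr_nonneg hpw (sm T) (sm T w.2)
          have : 0 ≤ (1 / 2) * (μ' w.1 * (Fm μ' T R U M (sm T w.2 + N) * pw μ' w.2 /
              Pr (pw (ι := Fin M) μ') (sm T) (sm T w.2))) := by
            positivity
          linarith
      · have e2 : ¬ sm T w.2 = x - T w.1 := fun e => h (by rw [hX]; simp only; rw [e]; abel)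
        have e3 : ¬ T w.1 = x - sm T w.2 := fun e => h (by rw [hX]; simp only; rw [e]; abel)
        rw [if_neg h, if_neg e2, if_neg e3]
        simp
    have h2 : Pr r X x = ∑ w, (if X w = x then r w else 0) := by
      unfold Pr
      exact sum_congr rfl fun ω _ => by split_ifs <;> rfl
    rw [h2]
    refine (sum_le_sum fun w _ => h1 w).trans ?_
    rw [sum_add_distrib]
    show _ ≤ (1 / 2) * ∑ ω, μ' ω * Fm μ' T R U M (x + N - T ω) +
      (1 / 2) * ∑ u : Fin M → Ω', pw μ' u * R (x + N - sm T u)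
    refine add_le_add ?_ ?_
    · rw [← mul_sum, Fintype.sum_prod_type]
      refine mul_le_mul_of_nonneg_left (sum_le_sum fun ω _ => ?_) (by norm_num)
      simp only
      rw [← mul_sum]
      refine mul_le_mul_of_nonneg_left ?_ (hμ.nonneg ω)
      have e : x + N - T ω = x - T ω + N := by abel
      rw [e]
      exact sum_group_le hpw.nonneg (sm T) (x - T ω) (hFs.1 _)
    · rw [← mul_sum, Fintype.sum_prod_type_right]
      refine mul_le_mul_of_nonneg_left (sum_le_sum fun u _ => ?_) (by norm_num)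
      simp only
      rw [← mul_sum]
      refine mul_le_mul_of_nonneg_left ?_ (hpw.nonneg u)
      have e : x + N - sm T u = x - sm T u + N := by abel
      rw [e]
      exact sum_group_le hμ.nonneg T (x - sm T u) (hR.1 _)
  rw [e1]
  refine (lift X (fun x => Fm μ' T R U (M + 1) (x + N)) hpP.nonneg hr0 hrpos
    fun w _ => hF _).trans (le_of_eq ?_)
  rw [Fintype.sum_prod_type]
  refine sum_congr rfl fun ω _ => ?_
  split_ifs with hb
  · unfold Em
    rw [mul_add, mul_sum]
    have e3 : μ' ω * log 2 = ∑ u : Fin M → Ω', μ' ω * (pw μ' u * log 2) := by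
      rw [← mul_sum, ← sum_mul, hpw.sum, one_mul]
    rw [e3, ← sum_add_distrib]
    refine sum_congr rfl fun u _ => ?_
    rcases (hpP.nonneg (ω, u)).eq_or_lt with h0 | h0
    · rw [← h0, zero_mul]
      have h1 : μ' ω * pw μ' u = 0 := h0.symm
      rw [← mul_assoc, ← mul_assoc, h1]; ring
    · obtain ⟨h1, h3⟩ := hpos _ h0
      simp only at h1 h3
      have h2 := Fm_pos (T := T) hμ hR hU hN M u h3
      have h4 := Pr_pos hpw (sm T) h3
      have e4 : p (ω, u) / r (ω, u) =
          2 * (Pr (pw (ι := Fin M) μ') (sm T) (sm T u) / Fm μ' T R U M (sm T u + N)) := by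
        rw [hp, hr]
        unfold px
        simp only [hb, if_true]
        field_simp
      rw [e4, log_mul (by norm_num) (div_pos h4 h2).ne', hp]
      unfold px
      simp only
      ring
  · have e3 : μ' ω * log (2 * Pr μ' T (T ω) / R (T ω + N)) =
        ∑ u : Fin M → Ω', pw μ' u * (μ' ω * log (2 * Pr μ' T (T ω) / R (T ω + N))) := by
      rw [← sum_mul, hpw.sum, one_mul]
    rw [e3]
    refine sum_congr rfl fun u _ => ?_
    rcases (hpP.nonneg (ω, u)).eq_or_lt with h0 | h0
    · rw [← h0, zero_mul]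
      have h1 : μ' ω * pw μ' u = 0 := h0.symm
      rw [← mul_assoc, mul_comm (pw μ' u), h1]; ring
    · obtain ⟨h1, h3⟩ := hpos _ h0
      simp only at h1 h3
      have h2 := hgood ω hb h1
      have h4 := Pr_pos hμ T h1
      have e4 : p (ω, u) / r (ω, u) = 2 * Pr μ' T (T ω) / R (T ω + N) := by
        rw [hp, hr]
        unfold px
        simp only [hb, if_false]
        field_simp
      rw [e4, hp]
      unfold px
      simp only
      ring

end iter

end Vale.Agent.P091.AD.H208
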