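import Vale.Agent.P091.AD.H208.Good
import Vale.Agent.P091.AD.H491.Step
import Vale.Agent.P091.AD.H880.Trunc

/-!
# P091, AD block, row AD-9 (helper208): `GoodLaw` and `LocStep`
-/

set_option autoImplicit false

open Finset Real
open Vale.Agent.P065.Ent

noncomputable section

namespace Vale.Agent.P091.AD.H208

open Vale.Agent.P091.AD Vale.Agent.P091.AD.H356

theorem goodLaw : Vale.Agent.P091.AD.H491.GoodLaw := by
  refine ⟨28, by norm_num, ?_⟩
  intro Γ _ A lam Ω' _ μ' ξ T Hν κ ι δ D1 R M h hA hR _ hδ hδR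
  obtain ⟨μ1, h1, hpos, hD0, -, -, hcost, hnoise⟩ :=
    good_law A lam μ' ξ T Hν κ ι δ D1 R M h hA hR hδ hδR
  refine ⟨μ1, h1, hpos, ?_, ?_⟩
  · refine le_trans (le_of_eq ?_) hcost
    rw [Hc_eq_sum h1, ← sum_sub_distrib]
    refine sum_congr rfl fun ω _ => ?_
    rcases (h1.nonneg ω).eq_or_lt with h0 | h0
    · rw [← h0]; simp
    · have q1 := Pr_pos h1 (fun ω => (lam.a (ξ ω).1, (lam.z (ξ ω).1, lam.a (ξ ω).2))) h0
      have q2 := Pr_pos h1 (fun ω => (lam.z (ξ ω).1, lam.a (ξ ω).2)) h0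
      have hβ := h.ac ω (hpos ω h0)
      have b1 : 0 < lam.μ (ξ ω).1 := by
        have := MP_cc_fst lam.prob lam.z
        refine (lam.prob.nonneg _).lt_of_ne fun e => ?_
        have hb : lam.beta (ξ ω) = 0 := by
          show cc lam.μ lam.z (ξ ω) = 0
          unfold cc
          rw [← e]
          simp
        rw [hb] at hβ
        exact lt_irrefl _ hβ
      have q3 := Pr_pos lam.prob (fun ω => (lam.a ω, lam.z ω)) b1
      have q4 := Pr_pos lam.prob lam.z b1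
      have e1 : rf lam (lam.zl (ξ ω)) (lam.a (ξ ω).1) =
          Pr lam.μ (fun ω => (lam.a ω, lam.z ω)) (lam.a (ξ ω).1, lam.z (ξ ω).1) /
            Pr lam.μ lam.z (lam.z (ξ ω).1) := rfl
      have q5 : 0 < rf lam (lam.zl (ξ ω)) (lam.a (ξ ω).1) := by rw [e1]; exact div_pos q3 q4
      rw [← e1, log_div q1.ne' (mul_pos q2 q5).ne', log_mul q2.ne' q5.ne']
      show _ = μ1 ω * -log (rf lam (lam.zl (ξ ω)) (lam.a (ξ ω).1)) -
        μ1 ω * -log (Pr μ1 (fun ω => (lam.a (ξ ω).1, (lam.z (ξ ω).1, lam.a (ξ ω).2)))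
          (lam.a (ξ ω).1, (lam.z (ξ ω).1, lam.a (ξ ω).2)) /
          Pr μ1 (fun ω => (lam.z (ξ ω).1, lam.a (ξ ω).2)) (lam.z (ξ ω).1, lam.a (ξ ω).2))
      rw [log_div q1.ne' q2.ne']
      ring
  · have e : H (fun w : Ω' × ((Fin M → Ω') × (Fin M → Ω')) =>
          μ1 w.1 * (pw μ' w.2.1 * pw μ' w.2.2)) (fun w => sm T w.2.1 - sm T w.2.2) =
        H (px (pw (ι := Fin M) μ') (pw (ι := Fin M) μ')) (fun w => sm T w.1 - sm T w.2) :=
      (MP_snd (ν := px (pw (ι := Fin M) μ') (pw (ι := Fin M) μ')) h1).ent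
        (fun w => sm T w.1 - sm T w.2)
    rw [e]
    exact hnoise

/-- **AD-9** -/
theorem locStep : LocStep := Vale.Agent.P091.AD.H491.locStep_of goodLaw
  Vale.Agent.P091.AD.H880.trunc

end Vale.Agent.P091.AD.H208
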