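import Vale.Agent.P091.AD.H208.Letter

/-!
# P091, AD block, row AD-9a (helper208): the entropy of the noisy letter, the good letters
-/

set_option autoImplicit false

open Finset Real
open Vale.Agent.P065.Ent

noncomputable section

namespace Vale.Agent.P091.AD.H208

open Vale.Agent.P091.AD Vale.Agent.P091.AD.H356

/-! ## Elementary facts -/

section elem
variable {Ω α β : Type*} [Fintype Ω]

theorem Pr_le_of_imp {p : Ω → ℝ} (hp : ∀ ω, 0 ≤ p ω) {X : Ω → α} {Y : Ω → β} {x : α} {y : β}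
    (h : ∀ ω, X ω = x → Y ω = y) : Pr p X x ≤ Pr p Y y := by
  classical
  unfold Pr
  refine sum_le_sum fun ω _ => ?_
  by_cases h1 : X ω = x
  · rw [if_pos h1, if_pos (h ω h1)]
  · rw [if_neg h1]
    split_ifs
    · exact hp ω
    · exact le_rfl

theorem SubP_Pr {Γ : Type*} {p : Ω → ℝ} (hp : ∀ ω, 0 ≤ p ω) (hp1 : ∑ ω, p ω ≤ 1) (X : Ω → Γ) :
    SubP (Pr p X) := by
  classical
  refine ⟨fun x => Pr_nn hp X x, fun S => ?_⟩
  have h1 : ∑ x ∈ S, Pr p X x ≤ ∑ x ∈ S ∪ univ.image X, Pr p X x :=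
    sum_le_sum_of_subset_of_nonneg subset_union_left fun x _ _ => Pr_nn hp X x
  have h2 : ∑ x ∈ S ∪ univ.image X, Pr p X x = ∑ x ∈ univ.image X, Pr p X x := by
    symm
    refine sum_subset subset_union_right fun x _ hx => ?_
    exact Pr_eq_zero X fun ω h => hx (h ▸ mem_image_of_mem X (mem_univ ω))
  have h3 := sum_fiber p X (fun _ => 1)
  simp only [mul_one] at h3
  rw [h2, ← h3] at h1
  exact h1.trans hp1

theorem cnd_nn {μ : Ω → ℝ} (hμ : IsProb μ) (Y : Ω → β) (y : β) (ω : Ω) : 0 ≤ cnd μ Y y ω := by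
  classical
  unfold cnd
  split_ifs
  · exact div_nonneg (hμ.nonneg ω) (Pr_nonneg hμ Y y)
  · exact le_rfl

theorem cnd_sum_le {μ : Ω → ℝ} (hμ : IsProb μ) (Y : Ω → β) (y : β) : ∑ ω, cnd μ Y y ω ≤ 1 := by
  classical
  rcases (Pr_nonneg hμ Y y).eq_or_lt with h0 | h0
  · have : ∀ ω, cnd μ Y y ω = 0 := by
      intro ω
      unfold cnd
      rw [← h0]
      split_ifs
      · rw [div_zero]
      · rfl
    rw [sum_congr rfl fun ω _ => this ω, sum_const_zero]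
    norm_num
  · exact (cnd_isProb hμ h0).sum.le

theorem markov {μ : Ω → ℝ} (hμ : IsProb μ) {f : Ω → ℝ} (hf : ∀ ω, 0 < μ ω → 0 ≤ f ω) {c : ℝ}
    (h : ∑ ω, μ ω * f ω ≤ c) [DecidablePred fun ω => 4 * c < f ω] :
    ∑ ω, (if 4 * c < f ω then μ ω else 0) ≤ 1 / 4 := by
  have h0 : ∀ ω, 0 ≤ μ ω * f ω := by
    intro ω
    rcases (hμ.nonneg ω).eq_or_lt with h1 | h1
    · rw [← h1, zero_mul]
    · exact mul_nonneg h1.le (hf ω h1)
  have hc : 0 ≤ c := (sum_nonneg fun ω _ => h0 ω).trans h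
  rcases hc.eq_or_lt with h1 | h1
  · have h2 : ∑ ω, μ ω * f ω = 0 := le_antisymm (h1 ▸ h) (sum_nonneg fun ω _ => h0 ω)
    have h3 := (sum_eq_zero_iff_of_nonneg fun ω _ => h0 ω).mp h2
    have h4 : ∀ ω, (if 4 * c < f ω then μ ω else 0) = 0 := by
      intro ω
      split_ifs with h5
      · rw [← h1, mul_zero] at h5
        have := h3 ω (mem_univ ω)
        rcases mul_eq_zero.mp this with h6 | h6
        · exact h6
        · exact absurd h6 h5.ne'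
      · rfl
    rw [sum_congr rfl fun ω _ => h4 ω, sum_const_zero]
    norm_num
  · have h2 : 4 * c * ∑ ω, (if 4 * c < f ω then μ ω else 0) ≤ ∑ ω, μ ω * f ω := by
      rw [mul_sum]
      refine sum_le_sum fun ω _ => ?_
      split_ifs with h5
      · rw [mul_comm]
        exact mul_le_mul_of_nonneg_left h5.le (hμ.nonneg ω)
      · rw [mul_zero]; exact h0 ω
    have h3 : 4 * c * ∑ ω, (if 4 * c < f ω then μ ω else 0) ≤ c := h2.trans h
    have h4 : c * (4 * ∑ ω, (if 4 * c < f ω then μ ω else 0)) ≤ c * 1 := by linarith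
    have := le_of_mul_le_mul_left h4 h1
    linarith

end elem

/-! ## The conditional laws -/

section laws
variable {Γ L Z Ω' : Type*} [AddCommGroup Γ] [Fintype Ω']

/-- the law of `T` given the letter -/
def pu (μ' : Ω' → ℝ) (ξ : Ω' → L) (T : Ω' → Γ) (u : L) : Γ → ℝ := Pr (cnd μ' ξ u) T

/-- the law of `T + N` given the label -/
def Rz (μ' : Ω' → ℝ) (ξ : Ω' → L) (T : Ω' → Γ) (N : L → Γ) (zl : L → Z) (z : Z) : Γ → ℝ :=
  Pr (cnd μ' (fun ω => zl (ξ ω)) z) (fun ω => T ω + N (ξ ω))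

open Classical in
/-- the divergence of the law of `T` given the letter from the law of `T` -/
def K1 (μ' : Ω' → ℝ) (ξ : Ω' → L) (T : Ω' → Γ) (u : L) : ℝ :=
  dl (univ.image T) (pu μ' ξ T u) (Pr μ' T)

open Classical in
/-- the divergence of the law of `T + N` given the letter from the law given the label -/
def K2 (μ' : Ω' → ℝ) (ξ : Ω' → L) (T : Ω' → Γ) (N : L → Γ) (zl : L → Z) (u : L) : ℝ :=
  dl (univ.image T) (pu μ' ξ T u) (fun s => Rz μ' ξ T N zl (zl u) (s + N u))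

variable {μ' : Ω' → ℝ} {ξ : Ω' → L} {T : Ω' → Γ} {N : L → Γ} {zl : L → Z}

theorem Rz_subP (hμ : IsProb μ') (ξ : Ω' → L) (T : Ω' → Γ) (N : L → Γ) (zl : L → Z) (z : Z) :
    SubP (Rz μ' ξ T N zl z) := SubP_Pr (cnd_nn hμ _ z) (cnd_sum_le hμ _ z) _

omit [AddCommGroup Γ] in
theorem pu_nonneg (hμ : IsProb μ') (u : L) (s : Γ) : 0 ≤ pu μ' ξ T u s := Pr_nn (cnd_nn hμ _ u) _ _

omit [AddCommGroup Γ] in
theorem pu_sum (hμ : IsProb μ') [DecidableEq Γ] {u : L} (hu : 0 < Pr μ' ξ u) :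
    ∑ s ∈ univ.image T, pu μ' ξ T u s = 1 := sum_Pr (cnd_isProb hμ hu) T

omit [AddCommGroup Γ] in
theorem pu_ac (hμ : IsProb μ') (u : L) {s : Γ} (h : Pr μ' T s = 0) : pu μ' ξ T u s = 0 := by
  unfold pu
  rw [Pr_cnd]
  have h1 : Pr μ' (fun ω => (T ω, ξ ω)) (s, u) ≤ Pr μ' T s :=
    Pr_le_of_imp hμ.nonneg fun ω e => (Prod.mk.inj e).1
  have h2 := Pr_nonneg hμ (fun ω => (T ω, ξ ω)) (s, u)
  have h3 : Pr μ' (fun ω => (T ω, ξ ω)) (s, u) = 0 := le_antisymm (h ▸ h1) h2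
  rw [h3, zero_div]

theorem Rz_ac (hμ : IsProb μ') {u : L} (hu : 0 < Pr μ' ξ u) {s : Γ}
    (h : Rz μ' ξ T N zl (zl u) (s + N u) = 0) : pu μ' ξ T u s = 0 := by
  unfold Rz at h
  unfold pu
  rw [Pr_cnd] at h ⊢
  have h1 : Pr μ' (fun ω => (T ω, ξ ω)) (s, u) ≤
      Pr μ' (fun ω => (T ω + N (ξ ω), zl (ξ ω))) (s + N u, zl u) := by
    refine Pr_le_of_imp hμ.nonneg fun ω e => ?_
    obtain ⟨e1, e2⟩ := Prod.mk.inj e
    rw [e1, e2]
  have h2 := Pr_nonneg hμ (fun ω => (T ω, ξ ω)) (s, u)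
  have h4 : Pr μ' ξ u ≤ Pr μ' (fun ω => zl (ξ ω)) (zl u) :=
    Pr_le_of_imp hμ.nonneg fun ω e => by rw [e]
  rcases div_eq_zero_iff.mp h with h5 | h5
  · have h3 : Pr μ' (fun ω => (T ω, ξ ω)) (s, u) = 0 := le_antisymm (h5 ▸ h1) h2
    rw [h3, zero_div]
  · rw [h5] at h4
    exact absurd hu (not_lt.mpr h4)

omit [AddCommGroup Γ] in
theorem K1_nonneg (hμ : IsProb μ') {u : L} (hu : 0 < Pr μ' ξ u) : 0 ≤ K1 μ' ξ T u := by
  classical
  unfold K1
  refine dl_nonneg (fun x _ => pu_nonneg hμ u x) (fun x _ => Pr_nonneg hμ T x)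
    (fun x _ h => pu_ac hμ u h) ?_
  have h1 := pu_sum (T := T) hμ hu
  have h2 := sum_Pr hμ T
  rw [h1, h2]

theorem K2_nonneg (hμ : IsProb μ') {u : L} (hu : 0 < Pr μ' ξ u) : 0 ≤ K2 μ' ξ T N zl u := by
  classical
  unfold K2
  refine dl_nonneg (fun x _ => pu_nonneg hμ u x) (fun x _ => (Rz_subP hμ ξ T N zl _).1 _)
    (fun x _ h => Rz_ac hμ hu h) ?_
  have h1 := pu_sum (T := T) hμ hu
  have h2 := ((Rz_subP hμ ξ T N zl (zl u)).shift (N u)).2 (univ.image T)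
  rw [h1]
  exact h2

omit [AddCommGroup Γ] in
theorem sum_K1 (hμ : IsProb μ') :
    ∑ ω, μ' ω * K1 μ' ξ T (ξ ω) = I μ' ξ T (fun _ => ()) := by
  classical
  rw [I_symm, I_eq_sum hμ, sum_fiber μ' ξ (K1 μ' ξ T)]
  have h1 : ∀ u, K1 μ' ξ T u = ∑ ω, cnd μ' ξ u ω * log (pu μ' ξ T u (T ω) / Pr μ' T (T ω)) := by
    intro u
    have := sum_fiber (cnd μ' ξ u) T (fun s => log (pu μ' ξ T u s / Pr μ' T s))
    rw [this]
    rfl
  rw [sum_congr rfl fun u _ => by rw [h1 u]]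
  rw [← sum_cnd_fiber hμ ξ (fun u ω => log (pu μ' ξ T u (T ω) / Pr μ' T (T ω)))]
  refine sum_congr rfl fun ω _ => ?_
  rcases (hμ.nonneg ω).eq_or_lt with h0 | h0
  · rw [← h0]; simp
  · unfold pu
    rw [Pr_cnd]
    have e1 : Pr μ' (fun ω => (T ω, (ξ ω, ()))) (T ω, (ξ ω, ())) =
        Pr μ' (fun ω => (T ω, ξ ω)) (T ω, ξ ω) := by
      refine Pr_congr (fun a b e => ?_) (fun a b e => ?_) ω
      · simp only [Prod.mk.injEq, and_true] at e ⊢
        exact e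
      · simp only [Prod.mk.injEq, and_true] at e ⊢
        exact e
    have e2 : Pr μ' (fun ω => (ξ ω, ())) (ξ ω, ()) = Pr μ' ξ (ξ ω) := by
      refine Pr_congr (fun a b e => ?_) (fun a b e => ?_) ω
      · simp only [Prod.mk.injEq, and_true] at e
        exact e
      · simp only [Prod.mk.injEq, and_true]
        exact e
    have e3 : Pr μ' (fun ω => (T ω, ())) (T ω, ()) = Pr μ' T (T ω) := by
      refine Pr_congr (fun a b e => ?_) (fun a b e => ?_) ω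
      · simp only [Prod.mk.injEq, and_true] at e
        exact e
      · simp only [Prod.mk.injEq, and_true]
        exact e
    have e4 : Pr μ' (fun _ : Ω' => ()) () = 1 := by
      unfold Pr
      simp [hμ.sum]
    rw [e1, e2, e3, e4, div_one]

theorem sum_K2 (hμ : IsProb μ') : ∑ ω, μ' ω * K2 μ' ξ T N zl (ξ ω) =
    I μ' ξ (fun ω => T ω + N (ξ ω)) (fun ω => zl (ξ ω)) := by
  classical
  rw [I_symm, I_eq_sum hμ, sum_fiber μ' ξ (K2 μ' ξ T N zl)]
  have h1 : ∀ u, K2 μ' ξ T N zl u = ∑ ω, cnd μ' ξ u ω *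
      log (pu μ' ξ T u (T ω) / Rz μ' ξ T N zl (zl u) (T ω + N u)) := by
    intro u
    have := sum_fiber (cnd μ' ξ u) T
      (fun s => log (pu μ' ξ T u s / Rz μ' ξ T N zl (zl u) (s + N u)))
    rw [this]
    rfl
  rw [sum_congr rfl fun u _ => by rw [h1 u]]
  rw [← sum_cnd_fiber hμ ξ (fun u ω =>
    log (pu μ' ξ T u (T ω) / Rz μ' ξ T N zl (zl u) (T ω + N u)))]
  refine sum_congr rfl fun ω _ => ?_
  rcases (hμ.nonneg ω).eq_or_lt with h0 | h0
  · rw [← h0]; simp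
  · unfold pu Rz
    rw [Pr_cnd, Pr_cnd]
    have e1 : Pr μ' (fun ω => (T ω + N (ξ ω), (ξ ω, zl (ξ ω))))
        (T ω + N (ξ ω), (ξ ω, zl (ξ ω))) = Pr μ' (fun ω => (T ω, ξ ω)) (T ω, ξ ω) := by
      refine Pr_congr (X := fun ω => (T ω + N (ξ ω), (ξ ω, zl (ξ ω)))) (Y := fun ω => (T ω, ξ ω))
        (fun a b e => ?_) (fun a b e => ?_) ω
      · simp only [Prod.mk.injEq] at e ⊢
        obtain ⟨e1, e2, -⟩ := e
        rw [e2] at e1
        exact ⟨add_right_cancel e1, e2⟩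
      · simp only [Prod.mk.injEq] at e ⊢
        rw [e.1, e.2]
        exact ⟨rfl, rfl, rfl⟩
    have e2 : Pr μ' (fun ω => (ξ ω, zl (ξ ω))) (ξ ω, zl (ξ ω)) = Pr μ' ξ (ξ ω) := by
      refine Pr_congr (X := fun ω => (ξ ω, zl (ξ ω))) (Y := ξ) (fun a b e => ?_)
        (fun a b e => ?_) ω
      · simp only [Prod.mk.injEq] at e
        exact e.1
      · simp only [Prod.mk.injEq]
        rw [e]
        exact ⟨rfl, rfl⟩
    rw [e1, e2]

end laws

/-! ## The entropy of the noisy letter -/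

section noise
variable {Γ L Z Ω' : Type*} [AddCommGroup Γ] [Fintype Ω'] {μ' : Ω' → ℝ} {ξ : Ω' → L} {T : Ω' → Γ}
  {N : L → Γ} {zl : L → Z} {U : Γ → ℝ}

theorem noise_bound (hμ : IsProb μ') (hU : SubP U) {μ1 : Ω' → ℝ} (h1 : IsProb μ1)
    {a a' : Ω' → Γ} (hN : ∀ ω, N (ξ ω) = a ω - a' ω) (hU0 : ∀ ω, 0 < U (N (ξ ω))) (M : ℕ) {B : ℝ}
    (hE : ∀ ω, 0 < μ1 ω → Em μ' T (Rz μ' ξ T N zl (zl (ξ ω))) U M (N (ξ ω)) ≤ B) :
    Hc (px μ1 (px (pw (ι := Fin M) μ') (pw (ι := Fin M) μ')))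
        (fun w => a w.1 + (sm T w.2.1 - sm T w.2.2)) (fun w => (zl (ξ w.1), a' w.1)) -
      H (px (pw (ι := Fin M) μ') (pw (ι := Fin M) μ')) (fun w => sm T w.1 - sm T w.2) ≤ B := by
  classical
  have hpw : IsProb (pw (ι := Fin M) μ') := pw_isProb hμ
  set ρ : (Fin M → Ω') × (Fin M → Ω') → ℝ := px (pw μ') (pw μ') with hρ
  have hρP : IsProb ρ := px_isProb hpw hpw
  have hW : IsProb (px μ1 ρ) := px_isProb h1 hρP
  have hFs : ∀ z, SubP (Fm μ' T (Rz μ' ξ T N zl z) U M) := fun z =>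
    Fm_subP (T := T) hμ (Rz_subP hμ ξ T N zl z) hU M
  set q : Z × Γ → Γ → ℝ := fun y x =>
    ∑ v : Fin M → Ω', pw μ' v * Fm μ' T (Rz μ' ξ T N zl y.1) U M (x - y.2 + sm T v) with hq
  have hqS : ∀ y, SubP (q y) := by
    intro y
    refine SubP.avg hpw.nonneg hpw.sum.le fun v => ?_
    have := ((hFs y.1).shift (sm T v)).shift' y.2
    exact this
  have hqx : ∀ w : Ω' × ((Fin M → Ω') × (Fin M → Ω')),
      q (zl (ξ w.1), a' w.1) (a w.1 + (sm T w.2.1 - sm T w.2.2)) =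
      ∑ v : Fin M → Ω', pw μ' v * Fm μ' T (Rz μ' ξ T N zl (zl (ξ w.1))) U M
        ((sm T w.2.1 - sm T w.2.2) + sm T v + N (ξ w.1)) := by
    intro w
    rw [hq]
    refine sum_congr rfl fun v _ => ?_
    have e : a w.1 + (sm T w.2.1 - sm T w.2.2) - a' w.1 + sm T v =
        (sm T w.2.1 - sm T w.2.2) + sm T v + N (ξ w.1) := by rw [hN]; abel
    simp only [e]
  have hposρ : ∀ w, 0 < ρ w → 0 < pw μ' w.1 ∧ 0 < pw μ' w.2 := by
    intro w hw
    constructor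
    · refine (hpw.nonneg _).lt_of_ne fun h => ?_
      rw [hρ] at hw
      unfold px at hw
      rw [← h, zero_mul] at hw
      exact lt_irrefl _ hw
    · refine (hpw.nonneg _).lt_of_ne fun h => ?_
      rw [hρ] at hw
      unfold px at hw
      rw [← h, mul_zero] at hw
      exact lt_irrefl _ hw
  have hposW : ∀ w, 0 < px μ1 ρ w → 0 < μ1 w.1 ∧ 0 < ρ w.2 := by
    intro w hw
    constructor
    · refine (h1.nonneg _).lt_of_ne fun h => ?_
      unfold px at hw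
      rw [← h, zero_mul] at hw
      exact lt_irrefl _ hw
    · refine (hρP.nonneg _).lt_of_ne fun h => ?_
      unfold px at hw
      rw [← h, mul_zero] at hw
      exact lt_irrefl _ hw
  have hqpos : ∀ (w : Ω' × ((Fin M → Ω') × (Fin M → Ω'))), 0 < ρ w.2 →
      0 < q (zl (ξ w.1), a' w.1) (a w.1 + (sm T w.2.1 - sm T w.2.2)) := by
    intro w hw
    obtain ⟨h2, h3⟩ := hposρ _ hw
    rw [hqx]
    have h4 := Fm_pos (T := T) hμ (Rz_subP hμ ξ T N zl (zl (ξ w.1))) hU (hU0 w.1) M w.2.1 h2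
    have h5 := single_le_sum (f := fun v : Fin M → Ω' => pw μ' v *
        Fm μ' T (Rz μ' ξ T N zl (zl (ξ w.1))) U M
        ((sm T w.2.1 - sm T w.2.2) + sm T v + N (ξ w.1)))
      (fun v _ => mul_nonneg (hpw.nonneg v) ((hFs _).1 _)) (mem_univ w.2.2)
    simp only [sub_add_cancel] at h5
    exact (mul_pos h3 h4).trans_le h5
  have hg := gibbs hW (fun w => a w.1 + (sm T w.2.1 - sm T w.2.2))
    (fun w => (zl (ξ w.1), a' w.1)) q (fun w hw => hqpos w (hposW w hw).2)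
    (fun w x _ => (hqS _).1 x) (fun w => (hqS _).2 _)
  -- the entropy of the noise, on the product space
  have hH : H ρ (fun w => sm T w.1 - sm T w.2) =
      ∑ w : Ω' × ((Fin M → Ω') × (Fin M → Ω')), px μ1 ρ w *
        (- log (Pr ρ (fun w => sm T w.1 - sm T w.2) (sm T w.2.1 - sm T w.2.2))) := by
    have := MP_snd (ν := ρ) h1 (fun w =>
      - log (Pr ρ (fun w => sm T w.1 - sm T w.2) (sm T w.1 - sm T w.2)))
    unfold H
    exact this.symm
  have h2 : Hc (px μ1 ρ) (fun w => a w.1 + (sm T w.2.1 - sm T w.2.2))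
        (fun w => (zl (ξ w.1), a' w.1)) - H ρ (fun w => sm T w.1 - sm T w.2) ≤
      ∑ w : Ω' × ((Fin M → Ω') × (Fin M → Ω')), px μ1 ρ w *
        log (Pr ρ (fun w => sm T w.1 - sm T w.2) (sm T w.2.1 - sm T w.2.2) /
          ∑ v : Fin M → Ω', pw μ' v * Fm μ' T (Rz μ' ξ T N zl (zl (ξ w.1))) U M
        ((sm T w.2.1 - sm T w.2.2) + sm T v + N (ξ w.1))) := by
    have h3 : ∑ w, px μ1 ρ w * (- log (q (zl (ξ w.1), a' w.1)
          (a w.1 + (sm T w.2.1 - sm T w.2.2)))) -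
        H ρ (fun w => sm T w.1 - sm T w.2) =
      ∑ w : Ω' × ((Fin M → Ω') × (Fin M → Ω')), px μ1 ρ w *
        log (Pr ρ (fun w => sm T w.1 - sm T w.2) (sm T w.2.1 - sm T w.2.2) /
          ∑ v : Fin M → Ω', pw μ' v * Fm μ' T (Rz μ' ξ T N zl (zl (ξ w.1))) U M
        ((sm T w.2.1 - sm T w.2.2) + sm T v + N (ξ w.1))) := by
      rw [hH, ← sum_sub_distrib]
      refine sum_congr rfl fun w _ => ?_
      rcases (hW.nonneg w).eq_or_lt with h0 | h0
      · rw [← h0]; simp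
      · obtain ⟨-, h5⟩ := hposW w h0
        have h6 := hqpos w h5
        have h7 := Pr_pos hρP (fun w => sm T w.1 - sm T w.2) h5
        rw [hqx] at h6 ⊢
        rw [log_div h7.ne' h6.ne']
        ring
    linarith
  refine h2.trans ?_
  rw [Fintype.sum_prod_type]
  have h3 : ∀ ω, ∑ w2 : (Fin M → Ω') × (Fin M → Ω'), px μ1 ρ (ω, w2) *
        log (Pr ρ (fun w => sm T w.1 - sm T w.2) (sm T w2.1 - sm T w2.2) /
          ∑ v : Fin M → Ω', pw μ' v * Fm μ' T (Rz μ' ξ T N zl (zl (ξ ω))) U M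
        ((sm T w2.1 - sm T w2.2) + sm T v + N (ξ ω))) ≤ μ1 ω * B := by
    intro ω
    have e : ∀ w2 : (Fin M → Ω') × (Fin M → Ω'), px μ1 ρ (ω, w2) *
        log (Pr ρ (fun w => sm T w.1 - sm T w.2) (sm T w2.1 - sm T w2.2) /
          ∑ v : Fin M → Ω', pw μ' v * Fm μ' T (Rz μ' ξ T N zl (zl (ξ ω))) U M
        ((sm T w2.1 - sm T w2.2) + sm T v + N (ξ ω))) = μ1 ω * (ρ w2 *
        log (Pr ρ (fun w => sm T w.1 - sm T w.2) (sm T w2.1 - sm T w2.2) /
          ∑ v : Fin M → Ω', pw μ' v * Fm μ' T (Rz μ' ξ T N zl (zl (ξ ω))) U M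
        ((sm T w2.1 - sm T w2.2) + sm T v + N (ξ ω)))) := by
      intro w2
      unfold px
      ring
    rw [sum_congr rfl fun w2 _ => e w2, ← mul_sum]
    rcases (h1.nonneg ω).eq_or_lt with h0 | h0
    · rw [← h0]; simp
    · refine mul_le_mul_of_nonneg_left ?_ h0.le
      exact (noise_letter hμ (Rz_subP hμ ξ T N zl (zl (ξ ω))) hU (hU0 ω) M).trans (hE ω h0)
  refine (sum_le_sum fun ω _ => h3 ω).trans (le_of_eq ?_)
  rw [← sum_mul, h1.sum, one_mul]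

end noise

end Vale.Agent.P091.AD.H208
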